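import Vale.Agent.P181.Six.T.D24_0
import Vale.Agent.P181.Six.T.B23

set_option maxRecDepth 100000
set_option maxHeartbeats 0

namespace Vale.Agent.P181.K

noncomputable def cT24_0_0 : L2 :=
 (Ls.cons Ls.nil
 (Ls.cons (Ls.cons (Ent.neg T24_9_1_0) (Ls.cons (Ent.neg T24_8_1_0) (Ls.cons (Ent.neg T24_7_1_0) (Ls.cons (Ent.neg T24_6_1_0) (Ls.cons (Ent.neg T24_5_1_0) (Ls.cons (Ent.neg T24_4_1_0) (Ls.cons (Ent.neg T24_3_1_0) (Ls.cons (Ent.pos T24_2_1_0) Ls.nil))))))))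
 (Ls.cons (Ls.cons Ent.zero (Ls.cons Ent.zero (Ls.cons (Ent.pos T24_7_2_0) (Ls.cons (Ent.pos T24_6_2_0) (Ls.cons (Ent.pos T24_5_2_0) (Ls.cons (Ent.pos T24_4_2_0) (Ls.cons (Ent.pos T24_3_2_0) Ls.nil)))))))
 (Ls.cons (Ls.cons Ent.zero (Ls.cons Ent.zero (Ls.cons (Ent.pos T24_7_3_0) (Ls.cons (Ent.pos T24_6_3_0) (Ls.cons (Ent.pos T24_5_3_0) (Ls.cons (Ent.pos T24_4_3_0) Ls.nil))))))
 (Ls.cons (Ls.cons Ent.zero (Ls.cons Ent.zero (Ls.cons Ent.zero (Ls.cons (Ent.pos T24_6_4_0) (Ls.cons (Ent.pos T24_5_4_0) Ls.nil)))))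
 (Ls.cons (Ls.cons Ent.zero (Ls.cons Ent.zero (Ls.cons Ent.zero (Ls.cons (Ent.pos T24_6_5_0) Ls.nil))))
 Ls.nil))))))

noncomputable def cT24_1_0 : L2 :=
 (Ls.cons Ls.nil
 (Ls.cons Ls.nil
 (Ls.cons (Ls.cons Ent.zero (Ls.cons Ent.zero (Ls.cons (Ent.neg T24_7_2_1) (Ls.cons (Ent.neg T24_6_2_1) (Ls.cons (Ent.neg T24_5_2_1) (Ls.cons (Ent.neg T24_4_2_1) (Ls.cons (Ent.neg T24_3_2_1) Ls.nil)))))))
 (Ls.cons (Ls.cons Ent.zero (Ls.cons Ent.zero (Ls.cons Ent.zero (Ls.cons (Ent.neg T24_6_3_1) (Ls.cons (Ent.neg T24_5_3_1) (Ls.cons (Ent.neg T24_4_3_1) Ls.nil))))))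
 (Ls.cons (Ls.cons Ent.zero (Ls.cons Ent.zero (Ls.cons Ent.zero (Ls.cons Ent.zero (Ls.cons (Ent.neg T24_5_4_1) Ls.nil)))))
 (Ls.cons Ls.nil
 Ls.nil))))))

noncomputable def cT24_2_0 : L2 :=
 (Ls.cons Ls.nil
 (Ls.cons Ls.nil
 (Ls.cons Ls.nil
 (Ls.cons (Ls.cons Ent.zero (Ls.cons Ent.zero (Ls.cons Ent.zero (Ls.cons Ent.zero (Ls.cons (Ent.neg T24_5_3_2) (Ls.cons (Ent.neg T24_4_3_2) Ls.nil))))))
 (Ls.cons Ls.nil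
 (Ls.cons Ls.nil
 Ls.nil))))))

noncomputable def tbT24 : L3 := (Ls.cons cT24_0_0 (Ls.cons cT24_1_0 (Ls.cons cT24_2_0 Ls.nil)))


end Vale.Agent.P181.K
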