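import Vale.Agent.P181.Six.T.B21

set_option maxRecDepth 100000
set_option maxHeartbeats 0

namespace Vale.Agent.P181.K

theorem cT21_0_0_eq : Ls.beq (Ls.beq Ent.beq) (chunk JT (JT.lev 21 39) bsT21 tT 0 0 6) cT21_0_0 = true := by
  decide +kernel

theorem cT21_1_0_eq : Ls.beq (Ls.beq Ent.beq) (chunk JT (JT.lev 21 39) bsT21 tT 1 0 6) cT21_1_0 = true := by
  decide +kernel

theorem cT21_2_0_eq : Ls.beq (Ls.beq Ent.beq) (chunk JT (JT.lev 21 39) bsT21 tT 2 0 6) cT21_2_0 = true := by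
  decide +kernel


end Vale.Agent.P181.K
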