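import Vale.Agent.P181.Six.T.S18
import Vale.Agent.P181.Six.T.B18

set_option maxRecDepth 100000
set_option maxHeartbeats 0

namespace Vale.Agent.P181.K

theorem srcT18_eq : Ls.beq (Ls.beq (Ls.beq Sv.beq)) (relayTbl JT 18 35 1099511627776 80 50 tT tbT18 0 3) srcT18 = true := by
  decide +kernel

end Vale.Agent.P181.K
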